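import Vale.Agent.P048.Sat.FastGraph
import Vale.Agent.P048.Sat.Z6x15.In0
import Vale.Agent.P048.Sat.Z6x15.Pf0

namespace Vale.Agent.P048.Sat.Z6x15

open Vale.Agent.P048.Sat Vale.Agent.P048.Sat.Fast

theorem unsat (A : ℕ → ℕ → Prop) (hA : Model sp A) : False := by
  have h0 : ∀ j, j < 0 → Fast.CSat (tauOf A) 256 (cls j) := fun j hj => absurd hj (Nat.not_lt_zero j)
  have h1 := Fast.checkIn_sound hA in0 h0
  have h2 := Fast.checkIn_sound hA in1 h1
  have h3 := Fast.checkIn_sound hA in2 h2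
  have h4 := Fast.checkIn_sound hA in3 h3
  have h5 := Fast.checkIn_sound hA in4 h4
  have h6 := Fast.checkIn_sound hA in5 h5
  have h7 := Fast.checkIn_sound hA in6 h6
  have h8 := Fast.checkRange_sound 8 (by norm_num) pf0 h7
  exact Fast.not_sat_of_shr (c := cls 2990) (by decide +kernel) (h8 2990 (by norm_num))

end Vale.Agent.P048.Sat.Z6x15
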